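import Vale.Agent.P299.H590.A.Sup
import Vale.Agent.P299.H98.Pencil.Abs

set_option linter.all false

/-!
P299, step (5): from the weights, the sup-metric comparison and the pencil theorem on the model
`S` of `X°` to a nonzero square integrable section.
-/

open MeasureTheory Filter Topology
open scoped ENNReal NNReal ComplexConjugate

namespace Vale.Agent.P299.H590.A

open Vale.Agent.P300.L2 Vale.Agent.P300.L2.Sheets Vale.Agent.P299.Pencil

variable {n N : ℕ} {S : Sheets n N}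

/-- sum of squares of a finite family -/
noncomputable def sq {r : ℕ} (h : Fin r → Pt n → ℂ) (q : Pt n) : ℝ := ∑ i, ‖h i q‖ ^ 2

/-- **The pencil theorem** for `(S, p)`. -/
def PencilProp (S : Sheets n N) (p : (Fin n → ℂ) → ℝ) : Prop :=
  ∀ (r : ℕ) (h : Fin (r + 1) → Pt n → ℂ), (∀ i, HP S p (h i)) →
    (∀ q ∈ S.M, h 0 q ≠ 0) → PB S p (fun q => (h 0 q)⁻¹) →
    ∀ (w : Pt n → ℝ≥0∞), PshD S p w → ∀ ε : ℝ, 0 < ε →
    ∑ k ∈ Finset.range (n + 2), (-1 : ℝ) ^ k * ((n + 1).choose k) *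
      (Module.finrank ℂ
        (A2 S fun q => w q * ENNReal.ofReal ((sq h q) ^ (-(ε + k)))) : ℝ) = 0

/-- Multiplication of a weight with a power of `∑ ‖h i‖²`. -/
def PshLogProp (S : Sheets n N) (p : (Fin n → ℂ) → ℝ) : Prop :=
  ∀ (r : ℕ) (h : Fin (r + 1) → Pt n → ℂ), (∀ i, HP S p (h i)) →
    (∀ q ∈ S.M, h 0 q ≠ 0) → PB S p (fun q => (h 0 q)⁻¹) →
    ∀ (w : Pt n → ℝ≥0∞), PshD S p w → ∀ c : ℝ, 0 ≤ c →
    PshD S p fun q => w q * ENNReal.ofReal ((sq h q) ^ (-c))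

theorem sq_pos {r : ℕ} {h : Fin (r + 1) → Pt n → ℂ} {q : Pt n} (h0 : h 0 q ≠ 0) :
    0 < sq h q := by
  have h1 : ‖h 0 q‖ ^ 2 ≤ sq h q :=
    Finset.single_le_sum (f := fun i => ‖h i q‖ ^ 2) (fun i _ => by positivity)
      (Finset.mem_univ 0)
  have : 0 < ‖h 0 q‖ ^ 2 := by positivity
  linarith

/-- the sequence for `exp (-(1-d) φ) E_G^(-d) E_Ψ^(-m)` -/
noncomputable def bsq (d : ℝ) (φ : Pt n → ℝ) (G Ψ : ℕ → Pt n → ℝ) (m : ℕ) (i : ℕ) (q : Pt n) : ℝ :=
  (1 - d) * φ q + (d * G i q + m * Ψ i q)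

/-- `exp (-(1-d) φ) E_G^(-d) E_Ψ^(-m)` -/
noncomputable def base (d : ℝ) (φ : Pt n → ℝ) (G Ψ : ℕ → Pt n → ℝ) (m : ℕ) (q : Pt n) : ℝ≥0∞ :=
  ENNReal.ofReal (Real.exp (-((1 - d) * φ q))) * supc d G q * supc m Ψ q

theorem base_eq {d : ℝ} (hd : 0 ≤ d) {φ : Pt n → ℝ} {G Ψ : ℕ → Pt n → ℝ} {q : Pt n}
    (hG : ∀ i, G (i + 1) q ≤ G i q) (hΨ : ∀ i, Ψ (i + 1) q ≤ Ψ i q) (m : ℕ) :
    base d φ G Ψ m q = ⨆ i, ENNReal.ofReal (Real.exp (-(bsq d φ G Ψ m i q))) := by
  unfold base bsq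
  rw [mul_assoc]
  have h1 : supc d G q * supc m Ψ q =
      ⨆ i, ENNReal.ofReal (Real.exp (-(d * G i q + m * Ψ i q))) := by
    unfold supc
    rw [iSup_mul_iSup_of_mono (supc_mono hd hG) (supc_mono (Nat.cast_nonneg m) hΨ)]
    refine iSup_congr fun i => ?_
    rw [← ENNReal.ofReal_mul (Real.exp_pos _).le, ← Real.exp_add]
    congr 2
    ring
  rw [h1, ENNReal.mul_iSup]
  refine iSup_congr fun i => ?_
  rw [← ENNReal.ofReal_mul (Real.exp_pos _).le, ← Real.exp_add]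
  congr 2
  ring

/-- the data of step (5) on the model -/
structure Data5 (S : Sheets n N) (p : (Fin n → ℂ) → ℝ) where
  /-- weight of `L = -K_X` -/
  φ : Pt n → ℝ
  φ_cd : S.CD 2 (fun q => (φ q : ℂ))
  φ_levi : ∀ q ∈ S.M, ∀ β : Fin n → ℂ, 0 ≤ S.levi φ β q
  φ_low : ∃ (c : ℝ) (k : ℕ), ∀ q ∈ S.M, Real.exp (-φ q) ≤ c * (1 + p q.1) ^ k
  φ_up : ∃ (c : ℝ) (k : ℕ), ∀ q ∈ S.M, Real.exp (φ q) ≤ c * (1 + p q.1) ^ k
  /-- only constants are `L²` for the weight `φ` -/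
  φ_const : ∀ F : Pt n → ℂ, S.Holo F →
    ∫⁻ q, ENNReal.ofReal (‖F q‖ ^ 2 * Real.exp (-φ q)) ∂S.μ < ⊤ → ∃ c : ℂ, ∀ q ∈ S.M, F q = c
  /-- the section `s` of `b₁ L` -/
  s : Pt n → ℂ
  s_holo : S.Holo s
  s_ne : ∀ q ∈ S.M, s q ≠ 0
  b₁ : ℕ
  e : ℕ
  /-- the two linear systems -/
  ru : ℕ
  u : Fin (ru + 1) → Pt n → ℂ
  u_hp : ∀ i, HP S p (u i)
  u_ne : ∀ q ∈ S.M, u 0 q ≠ 0
  u_inv : PB S p (fun q => (u 0 q)⁻¹)
  rv : ℕ
  v : Fin (rv + 1) → Pt n → ℂ
  v_hp : ∀ i, HP S p (v i)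
  v_ne : ∀ q ∈ S.M, v 0 q ≠ 0
  v_inv : PB S p (fun q => (v 0 q)⁻¹)
  /-- (5.1): `ρ^e ≤ C |v|² / |u|²` -/
  s_le : ∃ C : ℝ, ∀ q ∈ S.M, ‖s q‖ ^ (2 * e) * Real.exp (-(e * b₁ * φ q)) * sq u q ≤ C * sq v q
  /-- (5.2): the plurisubharmonic weight `Ψ ~ log |u|² - log |v|²` -/
  Ψ : ℕ → Pt n → ℝ
  Ψ_cd : ∀ i, S.CD 2 (fun q => (Ψ i q : ℂ))
  Ψ_anti : ∀ i, ∀ q ∈ S.M, Ψ (i + 1) q ≤ Ψ i q
  Ψ_levi : ∀ i, ∀ q ∈ S.M, ∀ β : Fin n → ℂ, 0 ≤ S.levi (Ψ i) β q
  Ψ_low : ∀ i, ∃ (c : ℝ) (k : ℕ), ∀ q ∈ S.M, Real.exp (-Ψ i q) ≤ c * (1 + p q.1) ^ k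
  Ψ_lim : ∃ C : ℝ, 0 < C ∧ ∀ q ∈ S.M, sq u q ≤ C * (sq v q * limE Ψ q) ∧
    sq v q * limE Ψ q ≤ C * sq u q
  /-- (5.3): `G ↘ φ_s - ε (log |u|² + log |v|²)`, plurisubharmonic -/
  d : ℝ
  d_pos : 0 < d
  d_lt : d < 1
  ε : ℝ
  ε_pos : 0 < ε
  G : ℕ → Pt n → ℝ
  G_cd : ∀ i, S.CD 2 (fun q => (G i q : ℂ))
  G_anti : ∀ i, ∀ q ∈ S.M, G (i + 1) q ≤ G i q
  G_levi : ∀ i, ∀ q ∈ S.M, ∀ β : Fin n → ℂ, 0 ≤ S.levi (G i) β q
  G_low : ∀ i, ∃ (c : ℝ) (k : ℕ), ∀ q ∈ S.M, Real.exp (-G i q) ≤ c * (1 + p q.1) ^ k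
  G_le : ∀ q ∈ S.M, limE G q * (sq u q * sq v q) ^ ε ≤ Real.exp (φ q)
  G_int : ∫⁻ q, ENNReal.ofReal (Real.exp (-((1 - d) * φ q))) * supc d G q *
    ENNReal.ofReal ((sq u q * sq v q) ^ (-(d * ε))) ∂S.μ < ⊤

variable {p : (Fin n → ℂ) → ℝ}

namespace Data5

variable (D : Data5 S p)

theorem u_pos {q : Pt n} (hq : q ∈ S.M) : 0 < sq D.u q := sq_pos (D.u_ne q hq)

theorem v_pos {q : Pt n} (hq : q ∈ S.M) : 0 < sq D.v q := sq_pos (D.v_ne q hq)

theorem one_le {hp : ∀ q ∈ S.M, 0 ≤ p q.1} {q : Pt n} (hq : q ∈ S.M) : 1 ≤ 1 + p q.1 := by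
  linarith [hp q hq]

end Data5

theorem PR.add {f g : Pt n → ℝ} (hf : PR S p f) (hg : PR S p g)
    (hp : ∀ q ∈ S.M, 0 ≤ p q.1) : PR S p fun q => f q + g q := by
  obtain ⟨c, k, hc, h⟩ := hf
  obtain ⟨c', k', hc', h'⟩ := hg
  refine ⟨c + c', k + k', by positivity, fun q hq => ?_⟩
  have h1 : 1 ≤ 1 + p q.1 := by linarith [hp q hq]
  have e1 : (1 + p q.1) ^ k ≤ (1 + p q.1) ^ (k + k') := pow_le_pow_right₀ h1 (by omega)
  have e2 : (1 + p q.1) ^ k' ≤ (1 + p q.1) ^ (k + k') := pow_le_pow_right₀ h1 (by omega)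
  calc f q + g q ≤ c * (1 + p q.1) ^ k + c' * (1 + p q.1) ^ k' := add_le_add (h q hq) (h' q hq)
    _ ≤ c * (1 + p q.1) ^ (k + k') + c' * (1 + p q.1) ^ (k + k') := by gcongr
    _ = (c + c') * (1 + p q.1) ^ (k + k') := by ring

theorem PR.sum {ι : Type*} (t : Finset ι) {f : ι → Pt n → ℝ} (hf : ∀ i ∈ t, PR S p (f i))
    (hp : ∀ q ∈ S.M, 0 ≤ p q.1) : PR S p fun q => ∑ i ∈ t, f i q := by
  classical
  induction t using Finset.induction_on with
  | empty => simpa using PR.const (S := S) (p := p) 0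
  | insert i t hi ih =>
    simp only [Finset.sum_insert hi]
    exact (hf i (Finset.mem_insert_self i t)).add
      (ih fun j hj => hf j (Finset.mem_insert_of_mem hj)) hp

theorem sq_PR {r : ℕ} {h : Fin r → Pt n → ℂ} (hh : ∀ i, HP S p (h i))
    (hp : ∀ q ∈ S.M, 0 ≤ p q.1) : PR S p (sq h) := by
  refine PR.sum Finset.univ (fun i _ => ?_) hp
  have h2 : PR S p fun q => ‖h i q‖ := PR.of hp (hh i).pb
  exact (h2.mul h2 hp fun q _ => norm_nonneg _).mono fun q _ => by rw [pow_two]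

theorem sq_inv_PR {r : ℕ} {h : Fin (r + 1) → Pt n → ℂ} (h0 : ∀ q ∈ S.M, h 0 q ≠ 0)
    (h1 : PB S p (fun q => (h 0 q)⁻¹)) (hp : ∀ q ∈ S.M, 0 ≤ p q.1) :
    PR S p fun q => (sq h q)⁻¹ := by
  have h2 : PR S p fun q => ‖(h 0 q)⁻¹‖ := PR.of hp h1
  refine (h2.mul h2 hp fun q _ => norm_nonneg _).mono fun q hq => ?_
  have h3 : ‖h 0 q‖ ^ 2 ≤ sq h q :=
    Finset.single_le_sum (f := fun i => ‖h i q‖ ^ 2) (fun i _ => by positivity)
      (Finset.mem_univ 0)
  have h4 : 0 < ‖h 0 q‖ ^ 2 := by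
    have := norm_pos_iff.2 (h0 q hq)
    positivity
  calc (sq h q)⁻¹ ≤ (‖h 0 q‖ ^ 2)⁻¹ := inv_anti₀ h4 h3
    _ = ‖(h 0 q)⁻¹‖ * ‖(h 0 q)⁻¹‖ := by rw [norm_inv, pow_two, mul_inv]

theorem sq_nonneg' {r : ℕ} (h : Fin r → Pt n → ℂ) (q : Pt n) : 0 ≤ sq h q :=
  Finset.sum_nonneg fun i _ => by positivity

theorem PR.pow {f : Pt n → ℝ} (hf : PR S p f) (hp : ∀ q ∈ S.M, 0 ≤ p q.1)
    (hf0 : ∀ q ∈ S.M, 0 ≤ f q) (m : ℕ) : PR S p fun q => f q ^ m := by
  have := hf.rpow hp hf0 (x := m) (Nat.cast_nonneg m)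
  exact this.mono fun q _ => by rw [Real.rpow_natCast]

namespace Data5

variable (D : Data5 S p)

/-- lower bound for `E_G^(-d)` -/
theorem G_sup {q : Pt n} (hq : q ∈ S.M) :
    ENNReal.ofReal (Real.exp (-(D.d * D.φ q)) * (sq D.u q * sq D.v q) ^ (D.d * D.ε)) ≤
      supc D.d D.G q := by
  have hu := D.u_pos hq
  have hv := D.v_pos hq
  have huv : 0 < sq D.u q * sq D.v q := mul_pos hu hv
  have h1 : limE D.G q ≤ Real.exp (D.φ q - D.ε * Real.log (sq D.u q * sq D.v q)) := by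
    rw [Real.exp_sub, le_div_iff₀ (Real.exp_pos _)]
    have h2 : Real.exp (D.ε * Real.log (sq D.u q * sq D.v q)) = (sq D.u q * sq D.v q) ^ D.ε := by
      rw [Real.rpow_def_of_pos huv, mul_comm]
    rw [h2]
    exact D.G_le q hq
  refine le_trans (le_of_eq ?_) (le_supc D.d_pos.le h1)
  congr 1
  rw [Real.rpow_def_of_pos huv, ← Real.exp_add]
  congr 1
  ring

/-- lower bound for `E_Ψ^(-m)` -/
theorem Ψ_sup : ∃ C : ℝ, 0 < C ∧ ∀ q ∈ S.M,
    (∀ m : ℕ, ENNReal.ofReal ((sq D.v q / (C * sq D.u q)) ^ m) ≤ supc m D.Ψ q) ∧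
    ∀ m : ℕ, supc m D.Ψ q ≤ ENNReal.ofReal ((C * sq D.v q / sq D.u q) ^ m) := by
  obtain ⟨C, hC, h⟩ := D.Ψ_lim
  refine ⟨C, hC, fun q hq => ?_⟩
  have hu := D.u_pos hq
  have hv := D.v_pos hq
  obtain ⟨h1, h2⟩ := h q hq
  constructor
  · intro m
    have h3 : limE D.Ψ q ≤ Real.exp (Real.log (C * sq D.u q / sq D.v q)) := by
      rw [Real.exp_log (by positivity), le_div_iff₀ hv]
      linarith
    refine le_trans (le_of_eq ?_) (le_supc (Nat.cast_nonneg m) h3)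
    congr 1
    rw [Real.exp_neg, Real.exp_nat_mul, Real.exp_log (by positivity), ← inv_pow, inv_div]
  · intro m
    have h3 : Real.exp (Real.log (sq D.u q / (C * sq D.v q))) ≤ limE D.Ψ q := by
      rw [Real.exp_log (by positivity), div_le_iff₀ (by positivity)]
      linarith
    refine le_trans (supc_le (Nat.cast_nonneg m) h3) (le_of_eq ?_)
    congr 1
    rw [Real.exp_neg, Real.exp_nat_mul, Real.exp_log (by positivity), ← inv_pow, inv_div]

theorem base_pshD (hp : ∀ q ∈ S.M, 0 ≤ p q.1) (m : ℕ) :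
    PshD S p (base D.d D.φ D.G D.Ψ m) where
  seq := by
    refine ⟨bsq D.d D.φ D.G D.Ψ m, fun i => ?_, fun i q hq => ?_, fun i => ?_, fun i q hq β => ?_,
      fun q hq => base_eq D.d_pos.le (fun i => D.G_anti i q hq) (fun i => D.Ψ_anti i q hq) m⟩
    · have h1 : S.CD 2 (fun q => ((1 - D.d : ℝ) : ℂ) * (D.φ q : ℂ) +
          (((D.d : ℝ) : ℂ) * (D.G i q : ℂ) + (((m : ℝ)) : ℂ) * (D.Ψ i q : ℂ))) :=
        CD.add (CD.mul (CD.const _) D.φ_cd)
          (CD.add (CD.mul (CD.const _) (D.G_cd i)) (CD.mul (CD.const _) (D.Ψ_cd i)))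
      refine h1.congr fun q _ => ?_
      simp only [bsq]
      push_cast
      ring
    · have h1 := mul_le_mul_of_nonneg_left (D.G_anti i q hq) D.d_pos.le
      have h2 := mul_le_mul_of_nonneg_left (D.Ψ_anti i q hq) (Nat.cast_nonneg (α := ℝ) m)
      simp only [bsq]
      linarith
    · have e1 : PR S p fun q => Real.exp (-D.φ q) := PR.of hp D.φ_low
      have e2 : PR S p fun q => Real.exp (-D.G i q) := PR.of hp (D.G_low i)
      have e3 : PR S p fun q => Real.exp (-D.Ψ i q) := PR.of hp (D.Ψ_low i)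
      have e4 := e1.rpow hp (fun q _ => (Real.exp_pos _).le) (x := 1 - D.d)
        (by linarith [D.d_lt])
      have e5 := e2.rpow hp (fun q _ => (Real.exp_pos _).le) D.d_pos.le
      have e6 := e3.rpow hp (fun q _ => (Real.exp_pos _).le) (Nat.cast_nonneg (α := ℝ) m)
      have e7 := (e4.mul e5 hp fun q _ => by positivity).mul e6 hp fun q _ => by positivity
      obtain ⟨c, k, -, h⟩ := e7
      refine ⟨c, k, fun q hq => le_trans (le_of_eq ?_) (h q hq)⟩
      dsimp only [bsq]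
      rw [← Real.exp_mul, ← Real.exp_mul, ← Real.exp_mul, ← Real.exp_add, ← Real.exp_add]
      congr 1
      ring
    · have h1 : S.CD 2 (fun q => ((D.d * D.G i q + m * D.Ψ i q : ℝ) : ℂ)) := by
        have h2 : S.CD 2 (fun q => ((D.d : ℝ) : ℂ) * (D.G i q : ℂ) +
            (((m : ℝ)) : ℂ) * (D.Ψ i q : ℂ)) :=
          CD.add (CD.mul (CD.const _) (D.G_cd i)) (CD.mul (CD.const _) (D.Ψ_cd i))
        refine h2.congr fun q _ => ?_
        push_cast
        ring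
      have h3 := levi_lin D.φ_cd h1 (1 - D.d) 1 hq β
      have h4 := levi_lin (D.G_cd i) (D.Ψ_cd i) D.d m hq β
      have h5 : S.levi (bsq D.d D.φ D.G D.Ψ m i) β q =
          (1 - D.d) * S.levi D.φ β q + 1 * S.levi (fun q => D.d * D.G i q + m * D.Ψ i q) β q := by
        rw [← h3]
        congr 1
        funext q
        simp only [bsq]
        ring
      rw [h5, h4]
      have e1 := mul_nonneg (by linarith [D.d_lt] : 0 ≤ 1 - D.d) (D.φ_levi q hq β)
      have e2 := mul_nonneg D.d_pos.le (D.G_levi i q hq β)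
      have e3 := mul_nonneg (Nat.cast_nonneg (α := ℝ) m) (D.Ψ_levi i q hq β)
      linarith
  low := by
    obtain ⟨C, hC, hΨ⟩ := D.Ψ_sup
    have eu := sq_PR D.u_hp hp
    have eui := sq_inv_PR D.u_ne D.u_inv hp
    have evi := sq_inv_PR D.v_ne D.v_inv hp
    have hde : 0 ≤ D.d * D.ε := (mul_pos D.d_pos D.ε_pos).le
    have e1 : PR S p fun q => Real.exp (D.φ q) := PR.of hp D.φ_up
    have e2 : PR S p fun q => ((sq D.u q)⁻¹ * (sq D.v q)⁻¹) ^ (D.d * D.ε) :=
      (eui.mul evi hp fun q _ => inv_nonneg.2 (sq_nonneg' _ _)).rpow hp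
        (fun q _ => mul_nonneg (inv_nonneg.2 (sq_nonneg' _ _)) (inv_nonneg.2 (sq_nonneg' _ _))) hde
    have e3 : PR S p fun q => (C * (sq D.u q * (sq D.v q)⁻¹)) ^ m := by
      refine PR.pow ?_ hp (fun q _ => mul_nonneg hC.le
        (mul_nonneg (sq_nonneg' _ _) (inv_nonneg.2 (sq_nonneg' _ _)))) m
      exact (PR.const C).mul (eu.mul evi hp fun q _ => inv_nonneg.2 (sq_nonneg' _ _)) hp
        fun q _ => mul_nonneg (sq_nonneg' _ _) (inv_nonneg.2 (sq_nonneg' _ _))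
    obtain ⟨c, k, hc, h⟩ := (e1.mul e2 hp fun q _ => Real.rpow_nonneg
      (mul_nonneg (inv_nonneg.2 (sq_nonneg' _ _)) (inv_nonneg.2 (sq_nonneg' _ _))) _).mul e3 hp
      fun q _ => pow_nonneg (mul_nonneg hC.le
        (mul_nonneg (sq_nonneg' _ _) (inv_nonneg.2 (sq_nonneg' _ _)))) _
    refine ⟨c⁻¹, k, by positivity, fun q hq => ?_⟩
    have hu := D.u_pos hq
    have hv := D.v_pos hq
    have h1 : 0 < 1 + p q.1 := by linarith [hp q hq]
    set R : ℝ := Real.exp (D.φ q) * ((sq D.u q)⁻¹ * (sq D.v q)⁻¹) ^ (D.d * D.ε) *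
      (C * (sq D.u q * (sq D.v q)⁻¹)) ^ m with hR
    have hR0 : 0 < R := by positivity
    have h2 : ENNReal.ofReal R⁻¹ ≤ base D.d D.φ D.G D.Ψ m q := by
      have h3 : R⁻¹ = Real.exp (-((1 - D.d) * D.φ q)) *
          (Real.exp (-(D.d * D.φ q)) * (sq D.u q * sq D.v q) ^ (D.d * D.ε)) *
          (sq D.v q / (C * sq D.u q)) ^ m := by
        rw [hR, mul_inv, mul_inv, ← Real.exp_neg, ← Real.inv_rpow (by positivity), mul_inv,
          inv_inv, inv_inv, ← inv_pow]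
        have h4 : Real.exp (-D.φ q) = Real.exp (-((1 - D.d) * D.φ q)) *
            Real.exp (-(D.d * D.φ q)) := by
          rw [← Real.exp_add]
          congr 1
          ring
        have h5 : (C * (sq D.u q * (sq D.v q)⁻¹))⁻¹ = sq D.v q / (C * sq D.u q) := by
          field_simp
        rw [h4, h5]
        ring
      rw [h3, ENNReal.ofReal_mul (by positivity), ENNReal.ofReal_mul (by positivity)]
      exact mul_le_mul' (mul_le_mul' le_rfl (D.G_sup hq)) ((hΨ q hq).1 m)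
    have h3 : c⁻¹ ≤ R⁻¹ * (1 + p q.1) ^ k := by
      have h4 := h q hq
      rw [inv_mul_eq_div, le_div_iff₀ hR0, inv_mul_le_iff₀ hc]
      exact h4
    calc ENNReal.ofReal c⁻¹ ≤ ENNReal.ofReal (R⁻¹ * (1 + p q.1) ^ k) := ENNReal.ofReal_le_ofReal h3
      _ = ENNReal.ofReal R⁻¹ * ENNReal.ofReal ((1 + p q.1) ^ k) :=
          ENNReal.ofReal_mul (by positivity)
      _ ≤ _ := mul_le_mul' h2 le_rfl

/-- the weights of step (5) -/
noncomputable def W (m t : ℕ) (q : Pt n) : ℝ≥0∞ :=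
  base D.d D.φ D.G D.Ψ m q * ENNReal.ofReal (sq D.u q ^ (-(D.d * D.ε))) *
    ENNReal.ofReal (sq D.v q ^ (-(D.d * D.ε + t)))

/-- the dimensions -/
noncomputable def f (m t : ℕ) : ℝ := Module.finrank ℂ (A2 S (D.W m t))

theorem rel_v (hp : ∀ q ∈ S.M, 0 ≤ p q.1) (hpen : PencilProp S p) (hlog : PshLogProp S p)
    (m a : ℕ) : ∑ k ∈ Finset.range (n + 1 + 1), (-1 : ℝ) ^ k * ((n + 1).choose k) *
      D.f m (a + k) = 0 := by
  have hde : 0 < D.d * D.ε := mul_pos D.d_pos D.ε_pos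
  have hw : PshD S p fun q => base D.d D.φ D.G D.Ψ m q *
      ENNReal.ofReal (sq D.u q ^ (-(D.d * D.ε))) * ENNReal.ofReal (sq D.v q ^ (-(a : ℝ))) :=
    hlog _ D.v D.v_hp D.v_ne D.v_inv _
      (hlog _ D.u D.u_hp D.u_ne D.u_inv _ (D.base_pshD hp m) _ hde.le) _ (Nat.cast_nonneg a)
  have h1 := hpen _ D.v D.v_hp D.v_ne D.v_inv _ hw _ hde
  rw [← h1]
  refine Finset.sum_congr rfl fun k _ => ?_
  have h2 : A2 S (D.W m (a + k)) = A2 S (fun q => base D.d D.φ D.G D.Ψ m q *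
      ENNReal.ofReal (sq D.u q ^ (-(D.d * D.ε))) * ENNReal.ofReal (sq D.v q ^ (-(a : ℝ))) *
      ENNReal.ofReal (sq D.v q ^ (-(D.d * D.ε + k)))) := by
    refine A2_congr fun q hq => ?_
    have hv := D.v_pos hq
    unfold W
    rw [mul_assoc (base D.d D.φ D.G D.Ψ m q * _) (ENNReal.ofReal _) (ENNReal.ofReal _),
      ← ENNReal.ofReal_mul (by positivity), ← Real.rpow_add hv]
    congr 3
    push_cast
    ring
  unfold f
  rw [h2]

theorem rel_u (hp : ∀ q ∈ S.M, 0 ≤ p q.1) (hpen : PencilProp S p) (hlog : PshLogProp S p)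
    (m a : ℕ) : ∑ k ∈ Finset.range (n + 1 + 1), (-1 : ℝ) ^ k * ((n + 1).choose k) *
      D.f (m + k) (a + k) = 0 := by
  have hde : 0 < D.d * D.ε := mul_pos D.d_pos D.ε_pos
  have hw : PshD S p fun q => base D.d D.φ D.G D.Ψ m q *
      ENNReal.ofReal (sq D.v q ^ (-(D.d * D.ε + a))) :=
    hlog _ D.v D.v_hp D.v_ne D.v_inv _ (D.base_pshD hp m) _
      (add_nonneg hde.le (Nat.cast_nonneg a))
  have h1 := hpen _ D.u D.u_hp D.u_ne D.u_inv _ hw _ hde
  rw [← h1]
  refine Finset.sum_congr rfl fun k _ => ?_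
  obtain ⟨C, hC, hΨ⟩ := D.Ψ_sup
  -- ratio of the two weights
  have key : ∀ q ∈ S.M, D.W (m + k) (a + k) q = base D.d D.φ D.G D.Ψ m q *
      ENNReal.ofReal (sq D.u q ^ (-(D.d * D.ε))) *
      ENNReal.ofReal (sq D.v q ^ (-(D.d * D.ε + a))) *
      (supc k D.Ψ q * ENNReal.ofReal (sq D.v q ^ (-(k : ℝ)))) := by
    intro q hq
    have hv := D.v_pos hq
    unfold W base
    rw [Nat.cast_add, supc_add (Nat.cast_nonneg m) (Nat.cast_nonneg k)
      (fun i => D.Ψ_anti i q hq)]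
    have h3 : ENNReal.ofReal (sq D.v q ^ (-(D.d * D.ε + ((a + k : ℕ) : ℝ)))) =
        ENNReal.ofReal (sq D.v q ^ (-(D.d * D.ε + a))) *
          ENNReal.ofReal (sq D.v q ^ (-(k : ℝ))) := by
      rw [← ENNReal.ofReal_mul (by positivity), ← Real.rpow_add hv]
      congr 2
      push_cast
      ring
    rw [h3]
    ring
  have key2 : ∀ q ∈ S.M, base D.d D.φ D.G D.Ψ m q *
      ENNReal.ofReal (sq D.v q ^ (-(D.d * D.ε + a))) *
      ENNReal.ofReal (sq D.u q ^ (-(D.d * D.ε + k))) = base D.d D.φ D.G D.Ψ m q *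
      ENNReal.ofReal (sq D.u q ^ (-(D.d * D.ε))) *
      ENNReal.ofReal (sq D.v q ^ (-(D.d * D.ε + a))) *
      ENNReal.ofReal (sq D.u q ^ (-(k : ℝ))) := by
    intro q hq
    have hu := D.u_pos hq
    have h3 : ENNReal.ofReal (sq D.u q ^ (-(D.d * D.ε + (k : ℝ)))) =
        ENNReal.ofReal (sq D.u q ^ (-(D.d * D.ε))) *
          ENNReal.ofReal (sq D.u q ^ (-(k : ℝ))) := by
      rw [← ENNReal.ofReal_mul (by positivity), ← Real.rpow_add hu]
      congr 2
      ring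
    rw [h3]
    ring
  have h2 : A2 S (D.W (m + k) (a + k)) = A2 S (fun q => base D.d D.φ D.G D.Ψ m q *
      ENNReal.ofReal (sq D.v q ^ (-(D.d * D.ε + a))) *
      ENNReal.ofReal (sq D.u q ^ (-(D.d * D.ε + k)))) := by
    refine A2_eq_of_comp (c := ENNReal.ofReal (C ^ k)) (c' := ENNReal.ofReal (C ^ k))
      ENNReal.ofReal_ne_top ENNReal.ofReal_ne_top (fun q hq => ?_) fun q hq => ?_
    · have hu := D.u_pos hq
      have hv := D.v_pos hq
      rw [key q hq, key2 q hq]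
      have h4 : ENNReal.ofReal (sq D.u q ^ (-(k : ℝ))) ≤ ENNReal.ofReal (C ^ k) *
          (supc k D.Ψ q * ENNReal.ofReal (sq D.v q ^ (-(k : ℝ)))) := by
        calc ENNReal.ofReal (sq D.u q ^ (-(k : ℝ)))
            = ENNReal.ofReal (C ^ k) * (ENNReal.ofReal ((sq D.v q / (C * sq D.u q)) ^ k) *
              ENNReal.ofReal (sq D.v q ^ (-(k : ℝ)))) := by
              rw [← ENNReal.ofReal_mul (by positivity), ← ENNReal.ofReal_mul (by positivity)]
              congr 1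
              rw [Real.rpow_neg hu.le, Real.rpow_neg hv.le, Real.rpow_natCast,
                Real.rpow_natCast, div_pow, mul_pow]
              field_simp
          _ ≤ _ := mul_le_mul' le_rfl (mul_le_mul' ((hΨ q hq).1 k) le_rfl)
      calc _ ≤ base D.d D.φ D.G D.Ψ m q *
            ENNReal.ofReal (sq D.u q ^ (-(D.d * D.ε))) *
            ENNReal.ofReal (sq D.v q ^ (-(D.d * D.ε + a))) * (ENNReal.ofReal (C ^ k) *
          (supc k D.Ψ q * ENNReal.ofReal (sq D.v q ^ (-(k : ℝ))))) := mul_le_mul' le_rfl h4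
        _ = _ := by ring
    · have hu := D.u_pos hq
      have hv := D.v_pos hq
      rw [key q hq, key2 q hq]
      have h4 : (supc k D.Ψ q * ENNReal.ofReal (sq D.v q ^ (-(k : ℝ)))) ≤
          ENNReal.ofReal (C ^ k) * ENNReal.ofReal (sq D.u q ^ (-(k : ℝ))) := by
        calc _ ≤ ENNReal.ofReal ((C * sq D.v q / sq D.u q) ^ k) *
              ENNReal.ofReal (sq D.v q ^ (-(k : ℝ))) := mul_le_mul' ((hΨ q hq).2 k) le_rfl
          _ = ENNReal.ofReal (C ^ k) * ENNReal.ofReal (sq D.u q ^ (-(k : ℝ))) := by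
              rw [← ENNReal.ofReal_mul (by positivity), ← ENNReal.ofReal_mul (by positivity)]
              congr 1
              rw [Real.rpow_neg hu.le, Real.rpow_neg hv.le, Real.rpow_natCast,
                Real.rpow_natCast, div_pow, mul_pow]
              field_simp
      calc _ ≤ base D.d D.φ D.G D.Ψ m q *
            ENNReal.ofReal (sq D.u q ^ (-(D.d * D.ε))) *
            ENNReal.ofReal (sq D.v q ^ (-(D.d * D.ε + a))) * (ENNReal.ofReal (C ^ k) *
              ENNReal.ofReal (sq D.u q ^ (-(k : ℝ)))) := mul_le_mul' le_rfl h4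
        _ = _ := by ring
  unfold f
  rw [h2]

theorem φ_meas (D : Data5 S p) : AEMeasurable D.φ S.μ := by
  have h1 := (aestronglyMeasurable_of_CD (D.φ_cd.mono (by norm_num : 0 ≤ 2))).aemeasurable
  have h2 := Complex.measurable_re.comp_aemeasurable h1
  refine h2.congr ?_
  filter_upwards with q
  simp

theorem holo_pow {X : Pt n → ℂ} (hX : S.Holo X) (k : ℕ) : S.Holo fun q => X q ^ k := by
  induction k with
  | zero => simpa using Holo.const (S := S) 1
  | succ k ih =>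
    simp only [pow_succ]
    exact ih.mul hX

open Classical in
theorem f_zero (hne : S.M.Nonempty) : D.f 0 0 = 1 := by
  unfold f
  have hW : ∀ q ∈ S.M, D.W 0 0 q = ENNReal.ofReal (Real.exp (-((1 - D.d) * D.φ q))) *
      supc D.d D.G q * ENNReal.ofReal ((sq D.u q * sq D.v q) ^ (-(D.d * D.ε))) := by
    intro q hq
    have hu := D.u_pos hq
    have hv := D.v_pos hq
    unfold W base
    simp only [Nat.cast_zero, supc_zero, mul_one, add_zero]
    rw [mul_assoc _ (ENNReal.ofReal _) (ENNReal.ofReal _), ← ENNReal.ofReal_mul (by positivity),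
      ← Real.mul_rpow hu.le hv.le]
  rw [A2_congr hW]
  set w : Pt n → ℝ≥0∞ := fun q => ENNReal.ofReal (Real.exp (-((1 - D.d) * D.φ q))) *
      supc D.d D.G q * ENNReal.ofReal ((sq D.u q * sq D.v q) ^ (-(D.d * D.ε))) with hw
  obtain ⟨q₀, hq₀⟩ := hne
  -- the constant function
  set e₀ : Pt n → ℂ := fun q => if q ∈ S.M then 1 else 0 with he₀
  have he : e₀ ∈ A2 S w := by
    refine ⟨fun W s hs => ?_, fun q hq => by simp [he₀, hq], ?_⟩
    · refine (differentiableOn_const (1 : ℂ)).congr fun z hz => ?_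
      simp [he₀, hs.mem_M hz]
    · calc ∫⁻ q, ‖e₀ q‖ₑ ^ 2 ∂(S.μ.withDensity w) ≤ ∫⁻ _, 1 ∂(S.μ.withDensity w) := by
            refine lintegral_mono fun q => ?_
            simp only [he₀]
            split_ifs <;> simp
        _ = ∫⁻ q, w q ∂S.μ := by
            rw [lintegral_one, withDensity_apply _ MeasurableSet.univ, Measure.restrict_univ]
        _ < ⊤ := D.G_int
  have hone : Module.finrank ℂ (A2 S w) = 1 := by
    refine finrank_eq_one_iff'.2 ⟨⟨e₀, he⟩, ?_, ?_⟩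
    · intro h
      have := congrFun (congrArg Subtype.val h) q₀
      simp [he₀, hq₀] at this
    · rintro ⟨F, hF, hF0, hF2⟩
      -- `F` is square integrable for the weight `φ`
      have h1 : F ∈ A2 S (fun q => ENNReal.ofReal (Real.exp (-D.φ q))) := by
        refine A2_mono (c := 1) (by simp) (fun q hq => ?_) ⟨hF, hF0, hF2⟩
        have hu := D.u_pos hq
        have hv := D.v_pos hq
        rw [one_mul]
        have h2 : Real.exp (-D.φ q) = Real.exp (-((1 - D.d) * D.φ q)) *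
            (Real.exp (-(D.d * D.φ q)) * (sq D.u q * sq D.v q) ^ (D.d * D.ε)) *
            (sq D.u q * sq D.v q) ^ (-(D.d * D.ε)) := by
          have h3 : (sq D.u q * sq D.v q) ^ (D.d * D.ε) *
              (sq D.u q * sq D.v q) ^ (-(D.d * D.ε)) = 1 := by
            rw [← Real.rpow_add (by positivity), add_neg_cancel, Real.rpow_zero]
          calc Real.exp (-D.φ q) = Real.exp (-((1 - D.d) * D.φ q)) *
              Real.exp (-(D.d * D.φ q)) := by
                rw [← Real.exp_add]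
                congr 1
                ring
            _ = Real.exp (-((1 - D.d) * D.φ q)) * Real.exp (-(D.d * D.φ q)) *
                ((sq D.u q * sq D.v q) ^ (D.d * D.ε) *
                  (sq D.u q * sq D.v q) ^ (-(D.d * D.ε))) := by rw [h3, mul_one]
            _ = _ := by ring
        rw [h2, ENNReal.ofReal_mul (by positivity), ENNReal.ofReal_mul (by positivity)]
        exact mul_le_mul' (mul_le_mul' le_rfl (D.G_sup hq)) le_rfl
      have h2 : ∫⁻ q, ENNReal.ofReal (‖F q‖ ^ 2 * Real.exp (-D.φ q)) ∂S.μ < ⊤ := by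
        have h3 := h1.2.2
        have hm : AEMeasurable (fun q => ENNReal.ofReal (Real.exp (-D.φ q))) S.μ :=
          (Real.measurable_exp.comp_aemeasurable D.φ_meas.neg).ennreal_ofReal
        rw [lintegral_withDensity_eq hm hF] at h3
        refine lt_of_le_of_lt (le_of_eq (lintegral_congr fun q => ?_)) h3
        rw [ENNReal.ofReal_mul (by positivity), ENNReal.ofReal_pow (norm_nonneg _), ofReal_norm]
      obtain ⟨c, hc⟩ := D.φ_const F hF h2
      refine ⟨c, Subtype.ext (funext fun q => ?_)⟩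
      by_cases hq : q ∈ S.M
      · simp [he₀, hq, hc q hq]
      · simp [he₀, hq, hF0 q hq]
  rw [hone]
  simp

/-- **Step (5)**: a nonzero square integrable section of a positive multiple of `b₁ L`. -/
theorem five (hp : ∀ q ∈ S.M, 0 ≤ p q.1) (hpen : PencilProp S p) (hlog : PshLogProp S p)
    (hne : S.M.Nonempty) : ∃ m : ℕ, 1 ≤ m ∧ ∃ F : Pt n → ℂ, S.Holo F ∧ (∃ q ∈ S.M, F q ≠ 0) ∧
      ∫⁻ q, ENNReal.ofReal (‖F q‖ ^ 2 *
        Real.exp (-(((m * D.e * D.b₁ : ℕ) + 1 : ℝ) * D.φ q))) ∂S.μ < ⊤ := by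
  obtain ⟨m, hm1, -, hm⟩ := H98.exists_ne_zero (N := n + 1) (f := D.f)
    (fun m a => D.rel_v hp hpen hlog m a) (fun m a => D.rel_u hp hpen hlog m a)
    (by rw [D.f_zero hne]; norm_num)
  refine ⟨m, hm1, ?_⟩
  -- a nonzero element of `A2 (W m 0)`
  obtain ⟨F, hF, hFne⟩ : ∃ F ∈ A2 S (D.W m 0), F ≠ 0 := by
    by_contra hcon
    push Not at hcon
    apply hm
    unfold f
    have : Subsingleton (A2 S (D.W m 0)) := by
      refine ⟨fun a b => Subtype.ext ?_⟩
      rw [hcon a.1 a.2, hcon b.1 b.2]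
    rw [Module.finrank_zero_of_subsingleton]
    simp
  obtain ⟨C, hC⟩ := D.s_le
  obtain ⟨C', hC', hΨ⟩ := D.Ψ_sup
  refine ⟨fun q => F q * D.s q ^ (m * D.e), hF.1.mul (holo_pow D.s_holo _), ?_, ?_⟩
  · by_contra hcon
    push Not at hcon
    apply hFne
    funext q
    by_cases hq : q ∈ S.M
    · have := hcon q hq
      rcases mul_eq_zero.1 this with h | h
      · simpa using h
      · exact absurd h (pow_ne_zero _ (D.s_ne q hq))
    · simpa using hF.2.1 q hq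
  · set w' : Pt n → ℝ≥0∞ := fun q => ENNReal.ofReal (‖D.s q‖ ^ (2 * (m * D.e)) *
      Real.exp (-(((m * D.e * D.b₁ : ℕ) + 1 : ℝ) * D.φ q))) with hw'
    have hmeas : AEMeasurable w' S.μ := by
      refine AEMeasurable.ennreal_ofReal ?_
      refine AEMeasurable.mul ?_ ?_
      · exact ((aestronglyMeasurable_of_CD (D.s_holo.CD 0)).norm.aemeasurable.pow_const _)
      · exact Real.measurable_exp.comp_aemeasurable ((D.φ_meas.const_mul _).neg)
    have hbd : ∀ q ∈ S.M, w' q ≤ ENNReal.ofReal ((|C| * C') ^ m) * D.W m 0 q := by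
      intro q hq
      have hu := D.u_pos hq
      have hv := D.v_pos hq
      have h1 : ‖D.s q‖ ^ (2 * D.e) * Real.exp (-(D.e * D.b₁ * D.φ q)) ≤
          |C| * C' * (sq D.v q / (C' * sq D.u q)) := by
        have h2 := hC q hq
        have h3 : ‖D.s q‖ ^ (2 * D.e) * Real.exp (-(D.e * D.b₁ * D.φ q)) ≤
            C * sq D.v q / sq D.u q := by
          rw [le_div_iff₀ hu]
          exact h2
        refine h3.trans ?_
        have h4 : |C| * C' * (sq D.v q / (C' * sq D.u q)) = |C| * sq D.v q / sq D.u q := by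
          field_simp
        rw [h4]
        have := le_abs_self C
        gcongr
      have h5 : ‖D.s q‖ ^ (2 * (m * D.e)) *
          Real.exp (-(((m * D.e * D.b₁ : ℕ) + 1 : ℝ) * D.φ q)) =
          (‖D.s q‖ ^ (2 * D.e) * Real.exp (-(D.e * D.b₁ * D.φ q))) ^ m *
            Real.exp (-D.φ q) := by
        rw [mul_pow, ← pow_mul, ← Real.exp_nat_mul, mul_assoc (_ ^ _), ← Real.exp_add]
        congr 2
        · ring
        · push_cast
          ring
      have h6 : Real.exp (-D.φ q) = Real.exp (-((1 - D.d) * D.φ q)) *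
          (Real.exp (-(D.d * D.φ q)) * (sq D.u q * sq D.v q) ^ (D.d * D.ε)) *
          (sq D.u q ^ (-(D.d * D.ε)) * sq D.v q ^ (-(D.d * D.ε))) := by
        have h3 : (sq D.u q * sq D.v q) ^ (D.d * D.ε) *
            (sq D.u q ^ (-(D.d * D.ε)) * sq D.v q ^ (-(D.d * D.ε))) = 1 := by
          rw [← Real.mul_rpow hu.le hv.le, ← Real.rpow_add (by positivity), add_neg_cancel,
            Real.rpow_zero]
        calc Real.exp (-D.φ q) = Real.exp (-((1 - D.d) * D.φ q)) *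
            Real.exp (-(D.d * D.φ q)) := by
              rw [← Real.exp_add]
              congr 1
              ring
          _ = Real.exp (-((1 - D.d) * D.φ q)) * Real.exp (-(D.d * D.φ q)) *
              ((sq D.u q * sq D.v q) ^ (D.d * D.ε) *
                (sq D.u q ^ (-(D.d * D.ε)) * sq D.v q ^ (-(D.d * D.ε)))) := by rw [h3, mul_one]
          _ = _ := by ring
      have h7 : (‖D.s q‖ ^ (2 * D.e) * Real.exp (-(D.e * D.b₁ * D.φ q))) ^ m ≤
          (|C| * C') ^ m * (sq D.v q / (C' * sq D.u q)) ^ m := by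
        rw [← mul_pow]
        exact pow_le_pow_left₀ (by positivity) h1 m
      calc w' q = ENNReal.ofReal ((‖D.s q‖ ^ (2 * D.e) *
            Real.exp (-(D.e * D.b₁ * D.φ q))) ^ m) * ENNReal.ofReal (Real.exp (-D.φ q)) := by
            rw [← ENNReal.ofReal_mul (by positivity), ← h5]
        _ ≤ (ENNReal.ofReal ((|C| * C') ^ m) *
            ENNReal.ofReal ((sq D.v q / (C' * sq D.u q)) ^ m)) *
            (ENNReal.ofReal (Real.exp (-((1 - D.d) * D.φ q))) *
              supc D.d D.G q * (ENNReal.ofReal (sq D.u q ^ (-(D.d * D.ε))) *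
                ENNReal.ofReal (sq D.v q ^ (-(D.d * D.ε))))) := by
            refine mul_le_mul' ?_ ?_
            · rw [← ENNReal.ofReal_mul (by positivity)]
              exact ENNReal.ofReal_le_ofReal h7
            · rw [h6, ENNReal.ofReal_mul (by positivity), ENNReal.ofReal_mul (by positivity),
                ENNReal.ofReal_mul (by positivity : 0 ≤ sq D.u q ^ (-(D.d * D.ε)))]
              exact mul_le_mul' (mul_le_mul' le_rfl (D.G_sup hq)) le_rfl
        _ ≤ (ENNReal.ofReal ((|C| * C') ^ m) * supc m D.Ψ q) *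
            (ENNReal.ofReal (Real.exp (-((1 - D.d) * D.φ q))) *
              supc D.d D.G q * (ENNReal.ofReal (sq D.u q ^ (-(D.d * D.ε))) *
                ENNReal.ofReal (sq D.v q ^ (-(D.d * D.ε))))) :=
            mul_le_mul' (mul_le_mul' le_rfl ((hΨ q hq).1 m)) le_rfl
        _ = ENNReal.ofReal ((|C| * C') ^ m) * D.W m 0 q := by
            unfold W base
            simp only [Nat.cast_zero, add_zero]
            ring
    have hF' := A2_mono ENNReal.ofReal_ne_top hbd hF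
    have h1 := hF'.2.2
    rw [lintegral_withDensity_eq hmeas hF.1] at h1
    refine lt_of_le_of_lt (le_of_eq (lintegral_congr fun q => ?_)) h1
    rw [hw', norm_mul, mul_pow, mul_assoc, ENNReal.ofReal_mul (by positivity),
      ENNReal.ofReal_pow (norm_nonneg _), ofReal_norm, norm_pow, ← pow_mul]
    congr 3
    ring

end Data5

end Vale.Agent.P299.H590.A
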