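import Vale.Agent.P299.H590.A.Five
import Vale.Agent.P299.H213.Pencil.Psh

set_option linter.all false

/-!
P299, step (5): `PshLogProp` holds on every model, and `PencilProp` follows from the pencil theorem
with densities in `[0, ∞]`.
-/

open MeasureTheory Filter Topology
open scoped ENNReal NNReal ComplexConjugate

namespace Vale.Agent.P299.H590.A

open Vale.Agent.P300.L2 Vale.Agent.P300.L2.Sheets Vale.Agent.P299.Pencil

variable {n N : ℕ} {S : Sheets n N} {p : (Fin n → ℂ) → ℝ}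

theorem pshD_congr {w w' : Pt n → ℝ≥0∞} (hw : PshD S p w) (h : ∀ q ∈ S.M, w' q = w q) :
    PshD S p w' := by
  obtain ⟨Φ, h1, h2, h3, h4, h5⟩ := hw.seq
  obtain ⟨c, k, hc, h6⟩ := hw.low
  exact ⟨⟨Φ, h1, h2, h3, h4, fun q hq => by rw [h q hq, h5 q hq]⟩,
    ⟨c, k, hc, fun q hq => by rw [h q hq]; exact h6 q hq⟩⟩

theorem pshLog (hp0 : ∀ z ∈ S.V, 0 ≤ p z) : PshLogProp S p := by
  intro r h hh h0 h1 w hw c hc
  refine pshD_congr (hw.mul_nd hp0 (fun j => (hh j).holo) (fun j => (hh j).pb) hc)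
    fun q hq => ?_
  have := sq_pos (h := h) (h0 q hq)
  rw [show (∑ j, ‖h j q‖ ^ 2) = sq h q from rfl, nd_of_pos this]

/-- The pencil theorem with densities in `[0, ∞]`. -/
def PencilNd (S : Sheets n N) (p : (Fin n → ℂ) → ℝ) : Prop :=
  ∀ (r : ℕ) (h : Fin (r + 1) → Pt n → ℂ), (∀ i, HP S p (h i)) → (∀ᵐ q ∂S.μ, h 0 q ≠ 0) →
    ∀ (w : Pt n → ℝ≥0∞), PshD S p w → ∀ ε : ℝ, 0 < ε →
    ∑ k ∈ Finset.range (n + 2), (-1 : ℝ) ^ k * ((n + 1).choose k) *
      (Module.finrank ℂ (A2 S fun q => w q * nd (∑ l, ‖h l q‖ ^ 2) (ε + k)) : ℝ) = 0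

theorem pencilProp_of (H : PencilNd S p) : PencilProp S p := by
  intro r h hh h0 h1 w hw ε hε
  have h2 : ∀ᵐ q ∂S.μ, h 0 q ≠ 0 := by
    filter_upwards [ae_mem_M] with q hq using h0 q hq
  rw [← H r h hh h2 w hw ε hε]
  refine Finset.sum_congr rfl fun k _ => ?_
  have h3 : A2 S (fun q => w q * ENNReal.ofReal ((sq h q) ^ (-(ε + k)))) =
      A2 S (fun q => w q * nd (∑ l, ‖h l q‖ ^ 2) (ε + k)) := by
    refine A2_congr fun q hq => ?_
    have := sq_pos (h := h) (h0 q hq)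
    rw [show (∑ j, ‖h j q‖ ^ 2) = sq h q from rfl, nd_of_pos this]
  rw [h3]

end Vale.Agent.P299.H590.A
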