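import Vale.Agent.P299.H590.A.Log
import Vale.Agent.P299.H213.Pencil.Main
import Vale.Agent.P299.H98.Pencil.Rank

set_option linter.all false

/-!
P299, step (5): the pencil theorem and the final form of step (5) on a model.
-/

open MeasureTheory Filter Topology
open scoped ENNReal NNReal ComplexConjugate

namespace Vale.Agent.P299.H590.A

open Vale.Agent.P300.L2 Vale.Agent.P300.L2.Sheets Vale.Agent.P299.Pencil

theorem exactP : ExactP := by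
  intro n N S p C k0 hp w0 hw w w' hw1 hw2 h0 δ hδ _ hfin
  have e1 : Module.Finite ℂ (A2 S (fun q => w0 q * H98.WE w w' q ^ (-(δ + 1)))) := by
    have := hfin 1
    rw [Nat.cast_one] at this
    exact this
  have e2 := H98.finrank_pencil hp hw hw1 hw2 h0 hδ
  have e3 : (Module.finrank ℂ (A2 S (fun q => w0 q * H98.WE w w' q ^ (-δ))) : ℝ) +
      Module.finrank ℂ (A2 S (fun q => w0 q * H98.WE w w' q ^ (-(δ + 2)))) =
      2 * Module.finrank ℂ (A2 S (fun q => w0 q * H98.WE w w' q ^ (-(δ + 1)))) := by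
    exact_mod_cast e2
  have e4 : (Module.finrank ℂ (A2 S (fun q => w0 q * nd (‖w q‖ ^ 2 + ‖w' q‖ ^ 2) δ)) : ℝ) +
      Module.finrank ℂ (A2 S (fun q => w0 q * nd (‖w q‖ ^ 2 + ‖w' q‖ ^ 2) (δ + 2))) =
      2 * Module.finrank ℂ (A2 S (fun q => w0 q * nd (‖w q‖ ^ 2 + ‖w' q‖ ^ 2) (δ + 1))) := e3
  linarith

variable {n N : ℕ} {S : Sheets n N} {p : (Fin n → ℂ) → ℝ}

theorem pencilProp {C : ℝ} {k0 : ℕ} (hp : Exh S.V p C k0) {A : ℕ}
    (hG : ∀ k : ℕ, Module.Finite ℂ (A2 S (gw p k)) ∧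
      Module.finrank ℂ (A2 S (gw p k)) ≤ A * (1 + k) ^ n)
    (hHP : ∀ (k : ℕ), ∀ F ∈ A2 S (gw p k), HP S p F) : PencilProp S p :=
  pencilProp_of fun _ _ hh h0 _ hw _ hε => pencil_of exactP hp hw hh h0 hε hG hHP

/-- **Step (5)** on a model with the growth bounds. -/
theorem Data5.section_exists (D : Data5 S p) {C : ℝ} {k0 : ℕ} (hp : Exh S.V p C k0) {A : ℕ}
    (hG : ∀ k : ℕ, Module.Finite ℂ (A2 S (gw p k)) ∧
      Module.finrank ℂ (A2 S (gw p k)) ≤ A * (1 + k) ^ n)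
    (hHP : ∀ (k : ℕ), ∀ F ∈ A2 S (gw p k), HP S p F) (hne : S.M.Nonempty) :
    ∃ m : ℕ, 1 ≤ m ∧ ∃ F : Pt n → ℂ, S.Holo F ∧ (∃ q ∈ S.M, F q ≠ 0) ∧
      ∫⁻ q, ENNReal.ofReal (‖F q‖ ^ 2 * Real.exp (-(((m * D.e * D.b₁ : ℕ) + 1 : ℝ) * D.φ q))) ∂S.μ
        < ⊤ :=
  D.five (fun q hq => exh_nonneg hp q.1 hq.1) (pencilProp hp hG hHP)
    (pshLog (exh_nonneg hp)) hne

end Vale.Agent.P299.H590.A
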