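import Vale.Agent.P299.H213.Pencil.Defs
import Vale.Agent.P300.H435.L2.Sing
import Vale.Agent.P300.H435.L2.LeviLog

set_option linter.all false

/-!
P299, step (5), assembly on Sheets: calculus of the densities `⨆ i, exp (- c Φ i)`.
-/

open MeasureTheory Filter Topology
open scoped ENNReal NNReal ComplexConjugate

namespace Vale.Agent.P299.H590.A

open Vale.Agent.P300.L2 Vale.Agent.P300.L2.Sheets Vale.Agent.P299.Pencil

variable {n N : ℕ} {S : Sheets n N}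

/-- `E ^ (-c)`, where `E` is the limit of `exp (Φ i)`. -/
noncomputable def supc (c : ℝ) (Φ : ℕ → Pt n → ℝ) (q : Pt n) : ℝ≥0∞ :=
  ⨆ i, ENNReal.ofReal (Real.exp (-(c * Φ i q)))

theorem iSup_mul_iSup_of_mono {x y : ℕ → ℝ≥0∞} (hx : Monotone x) (hy : Monotone y) :
    (⨆ i, x i) * (⨆ i, y i) = ⨆ i, x i * y i := by
  apply le_antisymm
  · rw [ENNReal.iSup_mul]
    refine iSup_le fun i => ?_
    rw [ENNReal.mul_iSup]
    refine iSup_le fun j => ?_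
    exact le_iSup_of_le (max i j) (mul_le_mul' (hx (le_max_left i j)) (hy (le_max_right i j)))
  · exact iSup_le fun i => mul_le_mul' (le_iSup x i) (le_iSup y i)

theorem supc_mono {c : ℝ} (hc : 0 ≤ c) {Φ : ℕ → Pt n → ℝ} {q : Pt n}
    (h : ∀ m, Φ (m + 1) q ≤ Φ m q) :
    Monotone fun i => ENNReal.ofReal (Real.exp (-(c * Φ i q))) := by
  refine monotone_nat_of_le_succ fun i => ?_
  refine ENNReal.ofReal_le_ofReal (Real.exp_le_exp.2 ?_)
  have := mul_le_mul_of_nonneg_left (h i) hc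
  linarith

theorem supc_add {c c' : ℝ} (hc : 0 ≤ c) (hc' : 0 ≤ c') {Φ : ℕ → Pt n → ℝ} {q : Pt n}
    (h : ∀ m, Φ (m + 1) q ≤ Φ m q) : supc (c + c') Φ q = supc c Φ q * supc c' Φ q := by
  unfold supc
  rw [iSup_mul_iSup_of_mono (supc_mono hc h) (supc_mono hc' h)]
  refine iSup_congr fun i => ?_
  rw [← ENNReal.ofReal_mul (Real.exp_pos _).le, ← Real.exp_add]
  congr 2
  ring

theorem supc_zero (Φ : ℕ → Pt n → ℝ) (q : Pt n) : supc 0 Φ q = 1 := by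
  simp [supc]

theorem supc_nat {Φ : ℕ → Pt n → ℝ} {q : Pt n} (h : ∀ m, Φ (m + 1) q ≤ Φ m q) (k : ℕ) :
    supc k Φ q = supc 1 Φ q ^ k := by
  induction k with
  | zero => simp [supc_zero]
  | succ k ih =>
    rw [Nat.cast_succ, supc_add (Nat.cast_nonneg k) zero_le_one h, ih, pow_succ]

/-- if the limit of `exp Φ` is at most `exp x` then its power `-c` is at least `exp (-c x)`. -/
theorem le_supc {c : ℝ} (hc : 0 ≤ c) {Φ : ℕ → Pt n → ℝ} {q : Pt n}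
    {x : ℝ} (hx : limE Φ q ≤ Real.exp x) : ENNReal.ofReal (Real.exp (-(c * x))) ≤ supc c Φ q := by
  refine le_of_forall_lt fun y hy => ?_
  -- `y < exp (-c x)`
  have hy' : y ≠ ⊤ := (hy.trans ENNReal.ofReal_lt_top).ne
  rw [ENNReal.lt_ofReal_iff_toReal_lt hy'] at hy
  have hcont : Continuous fun t : ℝ => Real.exp (-(c * t)) := by fun_prop
  have h1 : ∀ᶠ t in 𝓝 x, y.toReal < Real.exp (-(c * t)) :=
    (hcont.tendsto x).eventually_const_lt hy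
  obtain ⟨δ, hδ, h2⟩ := Metric.eventually_nhds_iff.1 h1
  have h3 : limE Φ q < Real.exp (x + δ / 2) :=
    hx.trans_lt (Real.exp_lt_exp.2 (by linarith))
  obtain ⟨i, hi⟩ := exists_lt_of_ciInf_lt h3
  have h4 : Φ i q < x + δ / 2 := Real.exp_lt_exp.1 hi
  have h5 : y.toReal < Real.exp (-(c * Φ i q)) := by
    have h6 : y.toReal < Real.exp (-(c * (x + δ / 2))) := h2 (by
      rw [Real.dist_eq]; simp only [add_sub_cancel_left]; rw [abs_of_pos (by linarith)]; linarith)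
    refine h6.trans_le (Real.exp_le_exp.2 ?_)
    have := mul_le_mul_of_nonneg_left h4.le hc
    linarith
  refine lt_of_lt_of_le ((ENNReal.lt_ofReal_iff_toReal_lt hy').2 h5) ?_
  exact le_iSup (fun i => ENNReal.ofReal (Real.exp (-(c * Φ i q)))) i

/-- upper bound -/
theorem supc_le {c : ℝ} (hc : 0 ≤ c) {Φ : ℕ → Pt n → ℝ} {q : Pt n}
    {x : ℝ} (hx : Real.exp x ≤ limE Φ q) : supc c Φ q ≤ ENNReal.ofReal (Real.exp (-(c * x))) := by
  refine iSup_le fun i => ENNReal.ofReal_le_ofReal (Real.exp_le_exp.2 ?_)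
  have h1 : Real.exp x ≤ Real.exp (Φ i q) := hx.trans (limE_le Φ i q)
  have h2 := Real.exp_le_exp.1 h1
  have := mul_le_mul_of_nonneg_left h2 hc
  linarith

/-! ### Comparison of spaces -/

theorem A2_mono {w w' : Pt n → ℝ≥0∞} {c : ℝ≥0∞} (hc : c ≠ ⊤)
    (h : ∀ q ∈ S.M, w' q ≤ c * w q) : A2 S w ≤ A2 S w' := by
  rintro F ⟨hF, hF0, hF2⟩
  refine ⟨hF, hF0, ?_⟩
  have h1 : S.μ.withDensity w' ≤ c • S.μ.withDensity w := by
    rw [← withDensity_smul' c w hc]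
    refine withDensity_mono ?_
    filter_upwards [ae_mem_M (S := S)] with q hq
    exact h q hq
  calc ∫⁻ q, ‖F q‖ₑ ^ 2 ∂(S.μ.withDensity w')
      ≤ ∫⁻ q, ‖F q‖ₑ ^ 2 ∂(c • S.μ.withDensity w) := lintegral_mono' h1 le_rfl
    _ = c * ∫⁻ q, ‖F q‖ₑ ^ 2 ∂(S.μ.withDensity w) := by rw [lintegral_smul_measure, smul_eq_mul]
    _ < ⊤ := ENNReal.mul_lt_top (lt_top_iff_ne_top.2 hc) hF2

theorem A2_eq_of_comp {w w' : Pt n → ℝ≥0∞} {c c' : ℝ≥0∞} (hc : c ≠ ⊤) (hc' : c' ≠ ⊤)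
    (h : ∀ q ∈ S.M, w' q ≤ c * w q) (h' : ∀ q ∈ S.M, w q ≤ c' * w' q) : A2 S w = A2 S w' :=
  le_antisymm (A2_mono hc h) (A2_mono hc' h')

theorem A2_congr {w w' : Pt n → ℝ≥0∞} (h : ∀ q ∈ S.M, w q = w' q) : A2 S w = A2 S w' :=
  A2_eq_of_comp (c := 1) (c' := 1) (by simp) (by simp) (fun q hq => by rw [one_mul, h q hq])
    fun q hq => by rw [one_mul, h q hq]

/-! ### Positive functions of polynomial growth -/

/-- `0 ≤ f ≤ c (1 + p)^k`. -/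
def PR (S : Sheets n N) (p : (Fin n → ℂ) → ℝ) (f : Pt n → ℝ) : Prop :=
  ∃ (c : ℝ) (k : ℕ), 0 < c ∧ ∀ q ∈ S.M, f q ≤ c * (1 + p q.1) ^ k

theorem PR.mul {p : (Fin n → ℂ) → ℝ} {f g : Pt n → ℝ} (hf : PR S p f) (hg : PR S p g)
    (hp : ∀ q ∈ S.M, 0 ≤ p q.1) (hg0 : ∀ q ∈ S.M, 0 ≤ g q) : PR S p fun q => f q * g q := by
  obtain ⟨c, k, hc, h⟩ := hf
  obtain ⟨c', k', hc', h'⟩ := hg
  refine ⟨c * c', k + k', by positivity, fun q hq => ?_⟩
  have h1 : 0 ≤ 1 + p q.1 := by linarith [hp q hq]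
  calc f q * g q ≤ (c * (1 + p q.1) ^ k) * (c' * (1 + p q.1) ^ k') :=
        mul_le_mul (h q hq) (h' q hq) (hg0 q hq) (by positivity)
    _ = c * c' * (1 + p q.1) ^ (k + k') := by rw [pow_add]; ring

theorem PR.rpow {p : (Fin n → ℂ) → ℝ} {f : Pt n → ℝ} (hf : PR S p f)
    (hp : ∀ q ∈ S.M, 0 ≤ p q.1) (hf0 : ∀ q ∈ S.M, 0 ≤ f q) {x : ℝ} (hx : 0 ≤ x) :
    PR S p fun q => f q ^ x := by
  obtain ⟨c, k, hc, h⟩ := hf
  refine ⟨c ^ x, ⌈(k : ℝ) * x⌉₊, by positivity, fun q hq => ?_⟩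
  have h1 : 1 ≤ 1 + p q.1 := by linarith [hp q hq]
  calc f q ^ x ≤ (c * (1 + p q.1) ^ k) ^ x := Real.rpow_le_rpow (hf0 q hq) (h q hq) hx
    _ = c ^ x * ((1 + p q.1) ^ k) ^ x := Real.mul_rpow hc.le (by positivity)
    _ = c ^ x * (1 + p q.1) ^ ((k : ℝ) * x) := by
        rw [← Real.rpow_natCast, ← Real.rpow_mul (by positivity)]
    _ ≤ c ^ x * (1 + p q.1) ^ ((⌈(k : ℝ) * x⌉₊ : ℕ) : ℝ) := by
        refine mul_le_mul_of_nonneg_left ?_ (by positivity)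
        exact Real.rpow_le_rpow_of_exponent_le h1 (Nat.le_ceil _)
    _ = c ^ x * (1 + p q.1) ^ ⌈(k : ℝ) * x⌉₊ := by rw [Real.rpow_natCast]

theorem PR.const {p : (Fin n → ℂ) → ℝ} (c : ℝ) : PR S p fun _ => c :=
  ⟨|c| + 1, 0, by positivity, fun q _ => by simp; linarith [le_abs_self c]⟩

theorem PR.mono {p : (Fin n → ℂ) → ℝ} {f g : Pt n → ℝ} (hf : PR S p f)
    (h : ∀ q ∈ S.M, g q ≤ f q) : PR S p g := by
  obtain ⟨c, k, hc, h1⟩ := hf
  exact ⟨c, k, hc, fun q hq => (h q hq).trans (h1 q hq)⟩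

/-- from the form used in the packages -/
theorem PR.of {p : (Fin n → ℂ) → ℝ} {f : Pt n → ℝ} (hp : ∀ q ∈ S.M, 0 ≤ p q.1)
    (h : ∃ (c : ℝ) (k : ℕ), ∀ q ∈ S.M, f q ≤ c * (1 + p q.1) ^ k) : PR S p f := by
  obtain ⟨c, k, h⟩ := h
  refine ⟨|c| + 1, k, by positivity, fun q hq => (h q hq).trans ?_⟩
  have h1 : 0 ≤ 1 + p q.1 := by linarith [hp q hq]
  exact mul_le_mul_of_nonneg_right (by linarith [le_abs_self c]) (by positivity)

end Vale.Agent.P299.H590.A
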